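import Vale.Agent.P329.Group3

namespace Vale.Agent.Results.P329.NilpotentThree

open Vale.Agent.P329

/-- Every language recognized by a finite nilpotent group of nilpotency class at most three
has generalized star height at most one. -/
theorem result {α : Type} [Finite α] {G : Type} [Group G] [Finite G] [Group.IsNilpotent G]
    (hG : Group.nilpotencyClass G ≤ 3) (φ : FreeMonoid α →* G) (S : Set G) :
    ∃ e : GExp α, e.lang = {w : List α | φ (FreeMonoid.ofList w) ∈ S} ∧ e.height ≤ 1 := by
  classical
  have h1 : Cl3 G :=
    cl3_of_lcs (Subgroup.lowerCentralSeries_eq_bot_iff_nilpotencyClass_le.2 hG)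
  have h2 := (comp_word (fun a : α => φ (FreeMonoid.of a)) h1).preimage S
  have h3 : ∀ w : List α, (w.map fun a => φ (FreeMonoid.of a)).prod =
      φ (FreeMonoid.ofList w) := by
    intro w
    induction w with
    | nil => simp
    | cons a w ih =>
      rw [List.map_cons, List.prod_cons, ih, ← map_mul]
      rfl
  simp only [h3] at h2
  exact h2

end Vale.Agent.Results.P329.NilpotentThree
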